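import Vale.Agent.P112.Defs
import Vale.Agent.P112.Final

namespace Vale.Agent.Results.P112.RotationAverage

open MeasureTheory Set Filter Topology Vale.Agent.P112
open scoped Real SchwartzMap ENNReal

theorem result :
    ∃ C : ℝ, 0 < C ∧
      ∀ v : ℂ → ℂ, (∀ x, ‖v x‖ = 1) → LipschitzWith 1 v →
      ∀ (c : ℂ) (a : ℝ), 0 < a → ∀ f : 𝓢(ℂ, ℂ),
        (∀ (τ : ℝ) (x : ℂ),
          Tendsto (fun ε => truncHilbert v a ε (fun y => f (rot c τ y)) x) (𝓝[>] 0)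
            (𝓝 (hilbert v a (fun y => f (rot c τ y)) x))) ∧
        (∀ ρ : ℝ, 0 < ρ → ρ < 1 →
          ∫⁻ τ in Ioc (0 : ℝ) (2 * π), ∫⁻ x in Metric.ball c ρ,
              ‖hilbert v a (fun y => f (rot c τ y)) x‖ₑ ^ 2
            ≤ ENNReal.ofReal (2 * π * (C / (1 - ρ))) * ∫⁻ x, ‖f x‖ₑ ^ 2) ∧
        (∀ m : ℤ,
          (∀ (τ : ℝ) (y : ℂ), f (rot c τ y) = Complex.exp (m * τ * Complex.I) * f y) →
            (∀ ρ : ℝ, 0 < ρ → ρ < 1 →
              ∫⁻ x in Metric.ball c ρ, ‖hilbert v a f x‖ₑ ^ 2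
                ≤ ENNReal.ofReal (C / (1 - ρ)) * ∫⁻ x, ‖f x‖ₑ ^ 2) ∧
            (a = 1 / 4 → (∀ y, 1 / 4 < dist y c → f y = 0) →
              ∀ lam : ℝ, 0 < lam →
                volume {x | lam < ‖hilbert v a f x‖}
                  ≤ ENNReal.ofReal (C / lam ^ 2) * ∫⁻ x, ‖f x‖ₑ ^ 2)) := by
  have hpi := Real.pi_pos
  refine ⟨72 * π, by positivity, ?_⟩
  intro v hv1 hv c a ha f
  have hmono : ∀ ρ : ℝ, ρ < 1 → 36 * π / (1 - ρ) ≤ 72 * π / (1 - ρ) := by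
    intro ρ hρ
    have : 0 < 1 - ρ := by linarith
    gcongr
    linarith
  refine ⟨?_, ?_, ?_⟩
  · intro τ x
    have h := tendsto_hilbert_rot v a f c τ x
    exact tendsto_nhds_limUnder ⟨_, h⟩
  · intro ρ _ hρ1
    refine (main_average hv1 hv c ha hρ1 f).trans ?_
    have := hmono ρ hρ1
    exact mul_le_mul_left (ENNReal.ofReal_le_ofReal (by nlinarith)) _
  · intro m hm
    refine ⟨?_, ?_⟩
    · intro ρ _ hρ1
      refine (mode_strong hv1 hv c ha hρ1 f m hm).trans ?_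
      exact mul_le_mul_left (ENNReal.ofReal_le_ofReal (hmono ρ hρ1)) _
    · rintro rfl hsupp lam hlam
      exact mode_weak hv1 hv c f m hm hsupp hlam

end Vale.Agent.Results.P112.RotationAverage
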